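import Vale.Agent.P048.Final17

namespace Vale.Agent.Results.P048.AllFrom17

/-- For all `m ≥ n ≥ 3` with `m ≥ 17` or `m ≥ 2 n` the Ramsey number `R(C_m, K_n)` equals
`(m - 1)(n - 1) + 1`: this is the least `N` such that every graph `G` on `N` vertices contains a
cycle on exactly `m` vertices, or its complement contains a complete graph on `n` vertices. -/
theorem result (m n : ℕ) (hn : 3 ≤ n) (hnm : n ≤ m) (hm : 17 ≤ m ∨ 2 * n ≤ m) :
    IsLeast {N : ℕ | ∀ G : SimpleGraph (Fin N),
      (SimpleGraph.cycleGraph m).IsContained G ∨ (⊤ : SimpleGraph (Fin n)).IsContained Gᶜ}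
      ((m - 1) * (n - 1) + 1) := by
  classical
  apply Vale.Agent.P048.isLeast_of_bound m n hn hnm
  intro N G hfree hind
  rcases hm with hm | hm
  · have h1 := Vale.Agent.P048.card_le_of_free17 G m hfree Finset.univ hm (by omega)
    rwa [Finset.card_univ, Fintype.card_fin] at h1
  · have h1 := Vale.Agent.P048.card_le_of_free G m hfree Finset.univ (by omega)
    rwa [Finset.card_univ, Fintype.card_fin] at h1

end Vale.Agent.Results.P048.AllFrom17
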