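import Vale.Agent.P048.FinalAll

namespace Vale.Agent.Results.P048.AllPairs

/-- For all `m ≥ n ≥ 3`: the Ramsey number `R(C_m, K_n)` equals `(m - 1)(n - 1) + 1` if and only if
`(m, n) ≠ (3, 3)`.  Here `R(C_m, K_n)` is the least `N` such that every graph `G` on `N` vertices
contains a cycle on exactly `m` vertices, or its complement contains a complete graph on `n`
vertices. -/
theorem result (m n : ℕ) (hn : 3 ≤ n) (hnm : n ≤ m) :
    IsLeast {N : ℕ | ∀ G : SimpleGraph (Fin N),
      (SimpleGraph.cycleGraph m).IsContained G ∨ (⊤ : SimpleGraph (Fin n)).IsContained Gᶜ}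
      ((m - 1) * (n - 1) + 1) ↔ (m, n) ≠ (3, 3) := by
  classical
  constructor
  · intro h hmn
    rw [Prod.mk.injEq] at hmn
    obtain ⟨rfl, rfl⟩ := hmn
    rcases h.1 (SimpleGraph.cycleGraph 5) with h1 | h1
    · exact Vale.Agent.P048.pentagon_free h1
    · exact Vale.Agent.P048.pentagon_indep h1
  · intro hne
    have hm : 4 ≤ m := by
      by_contra hcon
      have h1 : m = 3 := by omega
      have h2 : n = 3 := by omega
      exact hne (by rw [h1, h2])
    apply Vale.Agent.P048.isLeast_of_bound m n hn hnm
    intro N G hfree hind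
    have h1 := Vale.Agent.P048.card_le_of_free_all G m hfree Finset.univ hm (by omega)
    rwa [Finset.card_univ, Fintype.card_fin] at h1

end Vale.Agent.Results.P048.AllPairs
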