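import Vale.Agent.P048.Main
import Vale.Agent.P048.Lower

namespace Vale.Agent.Results.P048.TwoMul

/-- For all `n ≥ 3` and `m ≥ 2 n` the Ramsey number `R(C_m, K_n)` equals `(m - 1)(n - 1) + 1`:
this is the least `N` such that every graph `G` on `N` vertices contains a cycle on exactly `m`
vertices, or its complement contains a complete graph on `n` vertices. -/
theorem result (m n : ℕ) (hn : 3 ≤ n) (hm : 2 * n ≤ m) :
    IsLeast {N : ℕ | ∀ G : SimpleGraph (Fin N),
      (SimpleGraph.cycleGraph m).IsContained G ∨ (⊤ : SimpleGraph (Fin n)).IsContained Gᶜ}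
      ((m - 1) * (n - 1) + 1) := by
  classical
  constructor
  · intro G
    by_contra hcon
    rw [not_or] at hcon
    obtain ⟨hc, hi⟩ := hcon
    have hfree : ∀ l, Vale.Agent.P048.CycL G l → l.length ≠ m := by
      intro l hl hlm
      apply hc
      have := Vale.Agent.P048.CycL.isContained hl (by omega)
      rwa [hlm] at this
    have hind : Vale.Agent.P048.ind G Finset.univ ≤ n - 1 := by
      by_contra hcon
      push Not at hcon
      obtain ⟨I, -, hI, hIc⟩ := Vale.Agent.P048.exists_ind G Finset.univ
      obtain ⟨J, hJI, hJ⟩ := Finset.exists_subset_card_eq (s := I) (n := n) (by omega)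
      apply hi
      let e : Fin n ≃ {x // x ∈ J} := (Fintype.equivFinOfCardEq (by simp [hJ])).symm
      refine ⟨⟨⟨fun i => (e i).1, ?_⟩, ?_⟩⟩
      · intro i j hij
        rw [SimpleGraph.compl_adj]
        have hne : (e i).1 ≠ (e j).1 := by
          intro h
          exact hij (e.injective (Subtype.ext h))
        exact ⟨hne, hI (hJI (e i).2) (hJI (e j).2) hne⟩
      · intro i j hij
        exact e.injective (Subtype.ext hij)
    have h1 := Vale.Agent.P048.card_le_of_free G m hfree Finset.univ (by omega)
    rw [Finset.card_univ, Fintype.card_fin] at h1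
    have h2 : (m - 1) * Vale.Agent.P048.ind G Finset.univ ≤ (m - 1) * (n - 1) :=
      Nat.mul_le_mul_left _ hind
    omega
  · intro N hN
    by_contra hcon
    push Not at hcon
    rcases hN (Vale.Agent.P048.blockGraph (m - 1) N) with h | h
    · exact Vale.Agent.P048.blockGraph_no_cycle m N (by omega) h
    · exact Vale.Agent.P048.blockGraph_no_indep (m - 1) n N (by omega) (by omega) (by omega) h

end Vale.Agent.Results.P048.TwoMul
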